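import Vale.Agent.Lib.P038.SatK.I.P6_1.H
noncomputable section
namespace Vale.Agent.Lib.P038.SatK.I.P6_1.S0
open Vale.Agent.Lib.P038.Sat Vale.Agent.Lib.P038.SatK Vale.Agent.Lib.P038.SatK.I.P6_1
def b0 : List Nat := [nat_lit 562949953421335,nat_lit 1154047413137719505,nat_lit 1730085961632726913,nat_lit 2306617091203022673,nat_lit 7494834239234637843,nat_lit 2883288966918848401,nat_lit 3459820096623624129,nat_lit 4035858644985200865,nat_lit 70437463654439]
def p0 : List Nat := [nat_lit 4503599627386880,nat_lit 9007199254765568,nat_lit 13510798882144256,nat_lit 18014398509588480,nat_lit 22517998136967168,nat_lit 27021597764345862,nat_lit 31528495926550535,nat_lit 4398516273159]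
def o0 : List Nat := [nat_lit 7]
theorem ok : segCheck (Gen.gen sh_6_1_0_f (flP 6 1)) W M GT 4 0 1 H [b0] [] [p0] [o0] = true := by decide +kernel
theorem seg {τ : Nat → Bool} (hgen : ∀ t c, Gen.gen sh_6_1_0_f (flP 6 1) t = some c → holdsG τ c)
  (hin : ∀ g, g < 0 → HL W (loc GT τ) (getB H g)) :
  ∀ g, 0 ≤ g → g < 1 → HL W (loc GT τ) (getB H g) :=
  segCheck_sound ok hgen hin
end Vale.Agent.Lib.P038.SatK.I.P6_1.S0
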